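import Mathlib
import Vale.Agent.P084.PolyD
import Vale.Agent.P084.ProdReal
import Vale.Agent.P084.LSumD
import Vale.Agent.P084.CombDef
import Vale.Agent.P084.CombC
import Vale.Agent.P084.CombExists
import Vale.Agent.P084.CombPDef
import Vale.Agent.P084.CombP
import Vale.Agent.P084.SchreierFam

/-!
Tingley's problem: four classes of real Banach spaces with the Mazur-Ulam property, in each case
with an arbitrary real normed target space `Y`.

(1) Every nonzero polyhedral Banach space (Klee: the unit ball of each finite-dimensional subspace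
is the convex hull of a finite set), of any dimension.

(2) `X ⊕₁ ℝ` (the type `WithLp 1 (X × ℝ)`) and `X ⊕_∞ ℝ` (the type `X × ℝ`) for every real normed
space `X`.

(3) The combinatorial Banach space of every family `𝓕` of finite subsets of `ℕ` covering `ℕ` which
is compact, or more generally in which every member is contained in a maximal member.

(4) For `1 ≤ p < ∞` the `p`-convexified combinatorial space of every Schreier family of any
countable order, or of any covering family in which some `{i₀}` is the only member containing `i₀`.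

In (3) and (4) the space is described by its universal property: a real normed space `Z` with a
linear map `ι` from the finitely supported sequences into `Z` which has dense range and satisfies
`‖ι x‖ = N x` for the given norm `N`; a complete such space is shown to exist.
-/

namespace Vale.Agent.Results.P084.AllClassesMUP

open Vale.Agent.P084

universe u v

/-- The Mazur-Ulam property of `X`, tested against all real normed spaces `Y` of universe `v`. -/
def MazurUlam (X : Type u) [NormedAddCommGroup X] [NormedSpace ℝ X] : Prop :=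
  ∀ (Y : Type v) [NormedAddCommGroup Y] [NormedSpace ℝ Y]
    (f : Metric.sphere (0 : X) 1 → Metric.sphere (0 : Y) 1),
    Isometry f → Function.Surjective f →
    ∃ T : X ≃ₗᵢ[ℝ] Y, ∀ x : Metric.sphere (0 : X) 1, T (x : X) = (f x : Y)

/-- A complete space in which the finitely supported sequences normed by `N` are dense exists, and
every normed space in which they are dense has the Mazur-Ulam property. -/
def SeqMUP (N : (ℕ →₀ ℝ) → ℝ) : Prop :=
  (∃ (Z : Type) (_ : NormedAddCommGroup Z) (_ : NormedSpace ℝ Z) (_ : CompleteSpace Z)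
    (ι : (ℕ →₀ ℝ) →ₗ[ℝ] Z), DenseRange ι ∧ ∀ x, ‖ι x‖ = N x) ∧
  ∀ (Z : Type u) [NormedAddCommGroup Z] [NormedSpace ℝ Z] (ι : (ℕ →₀ ℝ) →ₗ[ℝ] Z),
    DenseRange ι → (∀ x, ‖ι x‖ = N x) → MazurUlam.{u, v} Z

theorem result :
    (∀ (X : Type u) [NormedAddCommGroup X] [NormedSpace ℝ X] [CompleteSpace X] [Nontrivial X],
      (∀ V : Submodule ℝ X, FiniteDimensional ℝ V →
        ∃ s : Finset X, (V : Set X) ∩ Metric.closedBall (0 : X) 1 = convexHull ℝ (s : Set X)) →
      MazurUlam.{u, v} X) ∧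
    (∀ (X : Type u) [NormedAddCommGroup X] [NormedSpace ℝ X],
      MazurUlam.{u, v} (WithLp 1 (X × ℝ)) ∧ MazurUlam.{u, v} (X × ℝ)) ∧
    (∀ 𝓕 : Set (Finset ℕ), (∀ i : ℕ, ∃ A ∈ 𝓕, i ∈ A) →
      (IsCompact ((fun (F : Finset ℕ) (i : ℕ) => decide (i ∈ F)) '' 𝓕) ∨
        ∀ A ∈ 𝓕, ∃ F ∈ 𝓕, A ⊆ F ∧ ∀ G ∈ 𝓕, F ⊆ G → G = F) →
      SeqMUP.{u, v} (combNorm 𝓕)) ∧
    IsSchreierFamily {F | ∀ i ∈ F, F.card ≤ i + 1} ∧
    ∀ (𝓕 : Set (Finset ℕ)) (p : ℝ), 1 ≤ p →
      (IsSchreierFamily 𝓕 ∨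
        ((∀ i : ℕ, ∃ A ∈ 𝓕, i ∈ A) ∧ ∃ i₀ : ℕ, ∀ F ∈ 𝓕, i₀ ∈ F → F = {i₀})) →
      SeqMUP.{u, v} (combNormP 𝓕 p) := by
  refine ⟨fun X _ _ _ _ hpoly Y _ _ f hf hs => polyhedral_mup hpoly f hf hs,
    fun X _ _ => ⟨fun Y _ _ f hf hs => LSum.mazur_ulam_l1_sum_real f hf hs,
      fun Y _ _ f hf hs => mazur_ulam_prod_real f hf hs⟩, ?_, isSchreierFamily_classical, ?_⟩
  · intro 𝓕 hcov h𝓕
    have hmax : ∀ A ∈ 𝓕, ∃ F ∈ 𝓕, A ⊆ F ∧ ∀ G ∈ 𝓕, F ⊆ G → G = F := by
      rcases h𝓕 with h | h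
      · exact max_of_closed 𝓕 h.isClosed
      · exact h
    exact ⟨comb_exists 𝓕, fun _ _ _ ι hι hn _ _ _ f hf hs => comb_mup hcov hmax ι hι hn f hf hs⟩
  · intro 𝓕 p hp h
    refine ⟨combP_exists 𝓕 p hp, ?_⟩
    have h' : (∀ i : ℕ, ∃ A ∈ 𝓕, i ∈ A) ∧ ∃ i₀ : ℕ, ∀ F ∈ 𝓕, i₀ ∈ F → F = {i₀} := by
      rcases h with h | h
      · exact ⟨fun i => ⟨{i}, h.props.1 i, Finset.mem_singleton_self i⟩, 0, h.props.2⟩
      · exact h
    obtain ⟨hcov, i₀, hiso⟩ := h'
    exact fun _ _ _ ι hι hn _ _ _ f hf hs =>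
      combP_mup hcov i₀ hiso p (by linarith) ι hι hn f hf hs

end Vale.Agent.Results.P084.AllClassesMUP
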