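import Mathlib
import Vale.Agent.P084.CombDef
import Vale.Agent.P084.CombC
import Vale.Agent.P084.CombExists

/-!
Tingley's problem: every combinatorial Banach space has the Mazur-Ulam property,
with an arbitrary target space `Y`.

`𝓕` is a family of finite subsets of `ℕ` covering `ℕ` which is compact (its set of indicator
functions is compact in `ℕ → Bool`), or more generally in which every member is contained in a
maximal member.  The combinatorial Banach space of `𝓕` is described by its universal property: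
a real normed space `Z` together with a linear map `ι` from the finitely supported sequences
into `Z` which has dense range and satisfies `‖ι x‖ = combNorm 𝓕 x`.  The first part of the
statement says that a complete such space exists, the second part is the
extension theorem for every such space.
-/

namespace Vale.Agent.Results.P084.CombinatorialMUP

open Vale.Agent.P084

universe u v

theorem result (𝓕 : Set (Finset ℕ)) (hcov : ∀ i : ℕ, ∃ A ∈ 𝓕, i ∈ A)
    (h𝓕 : IsCompact ((fun (F : Finset ℕ) (i : ℕ) => decide (i ∈ F)) '' 𝓕) ∨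
      ∀ A ∈ 𝓕, ∃ F ∈ 𝓕, A ⊆ F ∧ ∀ G ∈ 𝓕, F ⊆ G → G = F) :
    (∃ (Z : Type) (_ : NormedAddCommGroup Z) (_ : NormedSpace ℝ Z) (_ : CompleteSpace Z)
      (ι : (ℕ →₀ ℝ) →ₗ[ℝ] Z), DenseRange ι ∧ ∀ x, ‖ι x‖ = combNorm 𝓕 x) ∧
    ∀ (Z : Type u) (Y : Type v) [NormedAddCommGroup Z] [NormedSpace ℝ Z]
      [NormedAddCommGroup Y] [NormedSpace ℝ Y] (ι : (ℕ →₀ ℝ) →ₗ[ℝ] Z),
      DenseRange ι → (∀ x, ‖ι x‖ = combNorm 𝓕 x) →
      ∀ f : Metric.sphere (0 : Z) 1 → Metric.sphere (0 : Y) 1,
        Isometry f → Function.Surjective f →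
        ∃ T : Z ≃ₗᵢ[ℝ] Y, ∀ z : Metric.sphere (0 : Z) 1, T (z : Z) = (f z : Y) := by
  have hmax : ∀ A ∈ 𝓕, ∃ F ∈ 𝓕, A ⊆ F ∧ ∀ G ∈ 𝓕, F ⊆ G → G = F := by
    rcases h𝓕 with h | h
    · exact max_of_closed 𝓕 h.isClosed
    · exact h
  exact ⟨comb_exists 𝓕, fun _ _ _ _ _ _ ι hι hn f hf hs => comb_mup hcov hmax ι hι hn f hf hs⟩

end Vale.Agent.Results.P084.CombinatorialMUP
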