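import Mathlib
import Vale.Agent.P084.PolyD

/-!
Tingley's problem: every polyhedral Banach space has the Mazur-Ulam property.

A real Banach space `X` is polyhedral (Klee) if the unit ball of each of its finite-dimensional
subspaces is a polytope, that is the convex hull of a finite set.  The theorem says that every
surjective isometry from the unit sphere of a nonzero polyhedral Banach space `X` onto the unit
sphere of an arbitrary real normed space `Y` is the restriction of a surjective linear isometry.
-/

namespace Vale.Agent.Results.P084.PolyhedralMUP

open Vale.Agent.P084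

universe u v

theorem result (X : Type u) (Y : Type v) [NormedAddCommGroup X] [NormedSpace ℝ X]
    [CompleteSpace X] [Nontrivial X] [NormedAddCommGroup Y] [NormedSpace ℝ Y]
    (hpoly : ∀ V : Submodule ℝ X, FiniteDimensional ℝ V →
      ∃ s : Finset X, (V : Set X) ∩ Metric.closedBall (0 : X) 1 = convexHull ℝ (s : Set X))
    (f : Metric.sphere (0 : X) 1 → Metric.sphere (0 : Y) 1)
    (hf : Isometry f) (hs : Function.Surjective f) :
    ∃ T : X ≃ₗᵢ[ℝ] Y, ∀ x : Metric.sphere (0 : X) 1, T (x : X) = (f x : Y) :=
  polyhedral_mup hpoly f hf hs

end Vale.Agent.Results.P084.PolyhedralMUP
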