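import Mathlib
import Vale.Agent.P084.ProdReal
import Vale.Agent.P084.LSumD
import Vale.Agent.P084.CombPDef
import Vale.Agent.P084.CombP
import Vale.Agent.P084.TsDef
import Vale.Agent.P084.TsC

/-!
Tingley's problem.

(A) For an arbitrary real normed space `X`, both the sum `X ⊕₁ ℝ` (norm `‖x‖ + |t|`, the type
`WithLp 1 (X × ℝ)`) and the sum `X ⊕_∞ ℝ` (norm `max ‖x‖ |t|`, the type `X × ℝ`) have the
Mazur-Ulam property, with an arbitrary target space `Y`.

(B) The combinatorial Tsirelson spaces `T[θ, 𝓕]`, `0 < θ < 1`, have the Mazur-Ulam property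
when `𝓕` is a Schreier family of any countable order, or more generally a family of finite
subsets of `ℕ` which contains all singletons and in which `{0}` is the only member containing `0`.
For `θ = 1 / 2` and the classical Schreier family this is the Tsirelson space of Figiel and Johnson.
The space is described by its universal property: a real normed space `Z` together with a
linear map `ι` from the finitely supported sequences into `Z` which has dense range and
satisfies `‖ι x‖ = tsNorm θ 𝓕 x`; a complete such space exists.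
-/

namespace Vale.Agent.Results.P084.SummandTsirelsonMUP

open Vale.Agent.P084

universe u v

theorem result :
    (∀ (X : Type u) (Y : Type v) [NormedAddCommGroup X] [NormedSpace ℝ X]
      [NormedAddCommGroup Y] [NormedSpace ℝ Y],
      (∀ f : Metric.sphere (0 : WithLp 1 (X × ℝ)) 1 → Metric.sphere (0 : Y) 1,
        Isometry f → Function.Surjective f →
        ∃ T : WithLp 1 (X × ℝ) ≃ₗᵢ[ℝ] Y,
          ∀ z : Metric.sphere (0 : WithLp 1 (X × ℝ)) 1, T (z : WithLp 1 (X × ℝ)) = (f z : Y)) ∧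
      (∀ f : Metric.sphere (0 : X × ℝ) 1 → Metric.sphere (0 : Y) 1,
        Isometry f → Function.Surjective f →
        ∃ T : (X × ℝ) ≃ₗᵢ[ℝ] Y, ∀ z : Metric.sphere (0 : X × ℝ) 1, T (z : X × ℝ) = (f z : Y))) ∧
    ∀ (θ : ℝ) (𝓕 : Set (Finset ℕ)), 0 < θ → θ < 1 →
      (IsSchreierFamily 𝓕 ∨ ((∀ i : ℕ, {i} ∈ 𝓕) ∧ ∀ F ∈ 𝓕, 0 ∈ F → F = {0})) →
      (∃ (Z : Type) (_ : NormedAddCommGroup Z) (_ : NormedSpace ℝ Z) (_ : CompleteSpace Z)
        (ι : (ℕ →₀ ℝ) →ₗ[ℝ] Z), DenseRange ι ∧ ∀ x, ‖ι x‖ = tsNorm θ 𝓕 x) ∧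
      ∀ (Z : Type u) (Y : Type v) [NormedAddCommGroup Z] [NormedSpace ℝ Z]
        [NormedAddCommGroup Y] [NormedSpace ℝ Y] (ι : (ℕ →₀ ℝ) →ₗ[ℝ] Z),
        DenseRange ι → (∀ x, ‖ι x‖ = tsNorm θ 𝓕 x) →
        ∀ f : Metric.sphere (0 : Z) 1 → Metric.sphere (0 : Y) 1,
          Isometry f → Function.Surjective f →
          ∃ T : Z ≃ₗᵢ[ℝ] Y, ∀ z : Metric.sphere (0 : Z) 1, T (z : Z) = (f z : Y) := by
  refine ⟨fun X Y _ _ _ _ => ⟨fun f hf hs => LSum.mazur_ulam_l1_sum_real f hf hs,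
    fun f hf hs => mazur_ulam_prod_real f hf hs⟩, ?_⟩
  intro θ 𝓕 h0 h1 h
  have h' : (∀ i : ℕ, {i} ∈ 𝓕) ∧ ∀ F ∈ 𝓕, 0 ∈ F → F = {0} := by
    rcases h with h | h
    · exact h.props
    · exact h
  obtain ⟨hsing, hiso⟩ := h'
  refine ⟨exists_completion _ (tsNorm_add_le h0.le h1.le) tsNorm_smul
    (eq_zero_of_tsNorm h0.le h1.le), ?_⟩
  exact fun _ _ _ _ _ _ ι hι hn f hf hs =>
    seq_mup _ 0 (abs_le_tsNorm h0.le h1.le) (tsNorm_split h0.le h1.le hsing hiso) ι hι hn f hf hs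

end Vale.Agent.Results.P084.SummandTsirelsonMUP
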